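import Vale.Agent.P181.H303.Spec

/-!
P181, row RES3: counting of arrays with at least one non-constant row.
-/

set_option autoImplicit false

namespace Vale.Agent.P181.H349

open Finset Vale.Agent.P181.H303

/-- An arrangement given outside `U` with at most `s c` entries `c` extends to an arrangement
with exactly `s c` entries `c`. -/
theorem exists_ext {a : ℕ} (U : Finset (Fin a)) (p : Fin a → Fin a) (s : Fin a → ℕ)
    (hs : ∑ c, s c = a) (hn : ∀ c, ((univ \ U).filter (fun r => p r = c)).card ≤ s c) :
    ∃ p' : Fin a → Fin a, (∀ r, r ∉ U → p' r = p r) ∧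
      ∀ c, (univ.filter (fun r => p' r = c)).card = s c := by
  classical
  obtain ⟨n, hn_def⟩ : ∃ n : Fin a → ℕ, ∀ c, n c = ((univ \ U).filter (fun r => p r = c)).card :=
    ⟨_, fun c => rfl⟩
  have hn' : ∀ c, n c ≤ s c := fun c => by rw [hn_def]; exact hn c
  have h1 : ∑ c, n c = (univ \ U).card := by
    rw [card_eq_sum_card_fiberwise (t := univ) (f := p) (fun r _ => mem_coe.2 (mem_univ _))]
    exact sum_congr rfl fun c _ => hn_def c
  have h2 : (univ \ U).card + U.card = a := by
    rw [card_sdiff_add_card_eq_card (subset_univ U)]; simp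
  have h3 : ∑ c, (s c - n c) = U.card := by
    have : ∑ c, (s c - n c) + ∑ c, n c = ∑ c, s c := by
      rw [← sum_add_distrib]
      exact sum_congr rfl fun c _ => Nat.sub_add_cancel (hn' c)
    omega
  have h4 : Fintype.card (Σ c : Fin a, Fin (s c - n c)) = Fintype.card U := by
    simp [h3]
  let e : U ≃ Σ c : Fin a, Fin (s c - n c) := (Fintype.equivOfCardEq h4).symm
  let p' : Fin a → Fin a := fun r => if h : r ∈ U then (e ⟨r, h⟩).1 else p r
  refine ⟨p', fun r hr => by simp [p', hr], fun c => ?_⟩
  have h5 : (univ.filter (fun r => p' r = c)).card =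
      ((univ \ U).filter (fun r => p' r = c)).card + (U.filter (fun r => p' r = c)).card := by
    rw [← card_union_of_disjoint]
    · congr 1
      rw [← filter_union, sdiff_union_of_subset (subset_univ U)]
    · exact disjoint_filter_filter sdiff_disjoint
  have h6 : ((univ \ U).filter (fun r => p' r = c)).card = n c := by
    rw [hn_def]
    congr 1
    refine filter_congr fun r hr => ?_
    have : r ∉ U := (mem_sdiff.1 hr).2
    simp [p', this]
  have h7 : (U.filter (fun r => p' r = c)).card = s c - n c := by
    have h8 : Fintype.card {x : U // (e x).1 = c} = s c - n c := by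
      rw [Fintype.card_congr ((e.subtypeEquiv (q := fun y => y.1 = c)
        (fun x => Iff.rfl)).trans (Equiv.sigmaSubtype c))]
      simp
    rw [← h8, Fintype.card_subtype, ← card_map (Function.Embedding.subtype _)]
    congr 1
    ext r
    simp only [mem_filter, mem_map, mem_univ, true_and, Function.Embedding.coe_subtype]
    constructor
    · rintro ⟨hr, h⟩
      refine ⟨⟨r, hr⟩, ?_, rfl⟩
      simpa [p', hr] using h
    · rintro ⟨⟨x, hx⟩, h, rfl⟩
      refine ⟨hx, ?_⟩
      simpa [p', hx] using h
  rw [h5, h6, h7]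
  have := hn' c
  omega

theorem card_imp {a q : ℕ} (hq : 1 ≤ q) (s : Fin a → ℕ) (hs : ∑ c, s c = a)
    (U : Finset (Fin a)) :
    ((univ : Finset (Fin a → Fin q → Fin a)).filter (fun K => (∀ c,
      (univ.filter (fun p : Fin a × Fin q => K p.1 p.2 = c)).card = q * s c) ∧
      univ.filter (fun r => ∃ l l', K r l ≠ K r l') = U)).card ≤
    ((univ : Finset (Fin a → Fin a)).filter (fun p => ∀ c,
      (univ.filter (fun r => p r = c)).card = s c)).card * (a ^ q) ^ U.card := by
  classical
  let l0 : Fin q := ⟨0, hq⟩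
  have hcard : (univ : Finset (U → Fin q → Fin a)).card = (a ^ q) ^ U.card := by
    simp
  rw [← hcard, ← card_product]
  have hex : ∀ K : Fin a → Fin q → Fin a, (∀ c,
      (univ.filter (fun p : Fin a × Fin q => K p.1 p.2 = c)).card = q * s c) →
      univ.filter (fun r => ∃ l l', K r l ≠ K r l') = U →
      ∃ p' : Fin a → Fin a, (∀ r, r ∉ U → p' r = K r l0) ∧
      ∀ c, (univ.filter (fun r => p' r = c)).card = s c := by
    intro K hK hU
    refine exists_ext U (fun r => K r l0) s hs fun c => ?_
    have h1 : (((univ \ U).filter (fun r => K r l0 = c)) ×ˢ (univ : Finset (Fin q))).card ≤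
        (univ.filter (fun p : Fin a × Fin q => K p.1 p.2 = c)).card := by
      refine card_le_card ?_
      rintro ⟨r, l⟩ hr
      simp only [mem_product, mem_filter, mem_sdiff, mem_univ, true_and, and_true] at hr ⊢
      obtain ⟨hr1, hr2⟩ := hr
      rw [← hU] at hr1
      simp only [mem_filter, mem_univ, true_and, not_exists, not_not] at hr1
      rw [hr1 l l0]
      exact hr2
    rw [card_product, hK c] at h1
    simp only [card_univ, Fintype.card_fin] at h1
    rw [mul_comm] at h1
    exact Nat.le_of_mul_le_mul_left h1 hq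
  let f : (Fin a → Fin q → Fin a) → (Fin a → Fin a) × (U → Fin q → Fin a) := fun K =>
    if h : ∃ p' : Fin a → Fin a, (∀ r, r ∉ U → p' r = K r l0) ∧
      ∀ c, (univ.filter (fun r => p' r = c)).card = s c then (h.choose, fun r => K r)
    else (fun r => K r l0, fun r => K r)
  have hf : ∀ K : Fin a → Fin q → Fin a, (∀ c,
      (univ.filter (fun p : Fin a × Fin q => K p.1 p.2 = c)).card = q * s c) →
      univ.filter (fun r => ∃ l l', K r l ≠ K r l') = U →
      (∀ r, r ∉ U → (f K).1 r = K r l0) ∧
      (∀ c, (univ.filter (fun r => (f K).1 r = c)).card = s c) ∧ ∀ r : U, (f K).2 r = K r := by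
    intro K hK hU
    have h := hex K hK hU
    have hfK : f K = (h.choose, fun r : U => K r) := by
      simp only [f]
      rw [dif_pos h]
    rw [hfK]
    exact ⟨h.choose_spec.1, h.choose_spec.2, fun r => rfl⟩
  refine card_le_card_of_injOn f ?_ ?_
  · intro K hK
    have hK' := (mem_filter.1 (mem_coe.1 hK)).2
    have h := hf K hK'.1 hK'.2
    rw [mem_coe, mem_product]
    exact ⟨mem_filter.2 ⟨mem_univ _, h.2.1⟩, mem_univ _⟩
  · intro K hK K' hK' hff
    have h1 := (mem_filter.1 (mem_coe.1 hK)).2
    have h1' := (mem_filter.1 (mem_coe.1 hK')).2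
    have h2 := hf K h1.1 h1.2
    have h2' := hf K' h1'.1 h1'.2
    funext r l
    by_cases hr : r ∈ U
    · have h3 := h2.2.2 ⟨r, hr⟩
      have h3' := h2'.2.2 ⟨r, hr⟩
      rw [hff, h3'] at h3
      exact (congrFun h3 l).symm
    · have h3 := h2.1 r hr
      have h3' := h2'.1 r hr
      have h4 : ∀ l, K r l = K r l0 := by
        intro l
        have := hr
        rw [← h1.2] at this
        simp only [mem_filter, mem_univ, true_and, not_exists, not_not] at this
        exact this l l0
      have h4' : ∀ l, K' r l = K' r l0 := by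
        intro l
        have := hr
        rw [← h1'.2] at this
        simp only [mem_filter, mem_univ, true_and, not_exists, not_not] at this
        exact this l l0
      rw [h4, h4', ← h3, ← h3', hff]

theorem rowRES3 : RowRES3 := by
  classical
  intro a q ω hq hω s hs
  set N : ℕ := ((univ : Finset (Fin a → Fin a)).filter (fun p => ∀ c,
      (univ.filter (fun r => p r = c)).card = s c)).card with hN
  let im : (Fin a → Fin q → Fin a) → Finset (Fin a) :=
    fun K => univ.filter (fun r => ∃ l l', K r l ≠ K r l')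
  have hmaps : ∀ K ∈ (univ : Finset (Fin a → Fin q → Fin a)).filter (fun K => (∀ c,
      (univ.filter (fun p : Fin a × Fin q => K p.1 p.2 = c)).card = q * s c) ∧
      ∃ r l l', K r l ≠ K r l'), im K ∈ (univ : Finset (Finset (Fin a))).erase ∅ := by
    intro K hK
    obtain ⟨r, l, l', h⟩ := (mem_filter.1 hK).2.2
    refine mem_erase.2 ⟨?_, mem_univ _⟩
    refine (nonempty_iff_ne_empty.1 ⟨r, ?_⟩)
    exact mem_filter.2 ⟨mem_univ _, l, l', h⟩
  rw [← sum_fiberwise_of_maps_to hmaps]
  have hstep : ∀ U ∈ (univ : Finset (Finset (Fin a))).erase ∅,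
      ∑ K ∈ ((univ : Finset (Fin a → Fin q → Fin a)).filter (fun K => (∀ c,
        (univ.filter (fun p : Fin a × Fin q => K p.1 p.2 = c)).card = q * s c) ∧
        ∃ r l l', K r l ≠ K r l')).filter (fun K => im K = U),
        ω ^ (univ.filter (fun r => ∃ l l', K r l ≠ K r l')).card ≤
      (N : ℝ) * ((a : ℝ) ^ q * ω) ^ U.card := by
    intro U _
    have h1 : ∀ K ∈ ((univ : Finset (Fin a → Fin q → Fin a)).filter (fun K => (∀ c,
        (univ.filter (fun p : Fin a × Fin q => K p.1 p.2 = c)).card = q * s c) ∧
        ∃ r l l', K r l ≠ K r l')).filter (fun K => im K = U),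
        ω ^ (univ.filter (fun r => ∃ l l', K r l ≠ K r l')).card = ω ^ U.card := by
      intro K hK
      have := (mem_filter.1 hK).2
      rw [← this]
    rw [sum_congr rfl h1, sum_const, nsmul_eq_mul, mul_pow, ← mul_assoc]
    refine mul_le_mul_of_nonneg_right ?_ (pow_nonneg hω _)
    have h2 := card_imp hq s hs U
    have h3 : (((univ : Finset (Fin a → Fin q → Fin a)).filter (fun K => (∀ c,
        (univ.filter (fun p : Fin a × Fin q => K p.1 p.2 = c)).card = q * s c) ∧
        ∃ r l l', K r l ≠ K r l')).filter (fun K => im K = U)).card ≤ N * (a ^ q) ^ U.card := by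
      refine le_trans (card_le_card ?_) h2
      intro K hK
      have h4 := mem_filter.1 hK
      have h5 := mem_filter.1 h4.1
      exact mem_filter.2 ⟨mem_univ _, h5.2.1, h4.2⟩
    calc _ ≤ ((N * (a ^ q) ^ U.card : ℕ) : ℝ) := by exact_mod_cast h3
      _ = _ := by push_cast; ring
  refine le_trans (sum_le_sum hstep) (le_of_eq ?_)
  rw [← mul_sum]
  congr 1
  have h5 := Finset.sum_pow_mul_eq_add_pow ((a : ℝ) ^ q * ω) 1 (univ : Finset (Fin a))
  simp only [one_pow, mul_one, card_univ, Fintype.card_fin, powerset_univ] at h5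
  rw [add_comm (1 : ℝ), ← h5, ← sum_erase_add _ _ (mem_univ (∅ : Finset (Fin a)))]
  simp

end Vale.Agent.P181.H349
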